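import Mathlib
import Vale.Agent.H68.IsoDefs
import Vale.Agent.H68.IsoMain

namespace Vale.Agent.Results.P254.A_NPlusTwoVertices

open Vale.Agent.H68

/-- **Strong isotropic constant conjecture for polytopes with at most `n + 2` vertices.**
Let `n ≥ 1`, let `K ⊂ ℝ^n` be the convex hull of `n + 2` points `v 0, …, v (n+1)` with nonempty
interior, and let `S` be an `n`-simplex (the convex hull of `n + 1` affinely independent points).
Then `L_K ≤ L_S`, and equality holds if and only if one of the points `v j` lies in the convex
hull of the other `n + 1` points, that is, if and only if `K` itself is a simplex. -/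
theorem result (n : ℕ) (hn : 0 < n) (v : Fin (n + 2) → Fin n → ℝ)
    (hv : (interior (convexHull ℝ (Set.range v))).Nonempty)
    (w : Fin (n + 1) → Fin n → ℝ) (hw : AffineIndependent ℝ w) :
    isoConst (convexHull ℝ (Set.range v)) ≤ isoConst (convexHull ℝ (Set.range w)) ∧
      (isoConst (convexHull ℝ (Set.range v)) = isoConst (convexHull ℝ (Set.range w)) ↔
        ∃ j, v j ∈ convexHull ℝ (v '' {j}ᶜ)) :=
  iso_main hn v hv w hw

end Vale.Agent.Results.P254.A_NPlusTwoVertices
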