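import Mathlib
import Vale.Agent.H68.IsoDefs
import Vale.Agent.H68.IsoFormula

namespace Vale.Agent.Results.P254.B_Formula

open Vale.Agent.H68

/-- **Exact formula for the isotropic constant of a polytope with `n + 2` vertices.**
Let `n ≥ 1`, let `K ⊂ ℝ^n` be the convex hull of `n + 2` points `v 0, …, v (n+1)` with nonempty
interior, and let `S` be an `n`-simplex. The points `v k` admit an affine dependence
`∑ c k = 0`, `∑ c k • v k = 0` normalised by `∑ max (c k) 0 = 1` (the Radon weights), and for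
every such dependence
`L_K^(2n) = L_S^(2n) * (1 - (1 - ∑ (c k)₊²) * (1 - ∑ (c k)₋²))`. -/
theorem result (n : ℕ) (hn : 0 < n) (v : Fin (n + 2) → Fin n → ℝ)
    (hv : (interior (convexHull ℝ (Set.range v))).Nonempty)
    (w : Fin (n + 1) → Fin n → ℝ) (hw : AffineIndependent ℝ w) :
    (∃ c : Fin (n + 2) → ℝ, ∑ k, c k = 0 ∧ ∑ k, c k • v k = 0 ∧ ∑ k, max (c k) 0 = 1) ∧
    ∀ c : Fin (n + 2) → ℝ, ∑ k, c k = 0 → ∑ k, c k • v k = 0 → ∑ k, max (c k) 0 = 1 →
      isoConst (convexHull ℝ (Set.range v)) ^ (2 * n)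
        = isoConst (convexHull ℝ (Set.range w)) ^ (2 * n)
          * (1 - (1 - ∑ k, (max (c k) 0) ^ 2) * (1 - ∑ k, (max (-c k) 0) ^ 2)) :=
  iso_formula hn v hv w hw

end Vale.Agent.Results.P254.B_Formula
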