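import Mathlib
import Vale.Agent.H68.IsoDefs
import Vale.Agent.H68.IsoMain
import Vale.Agent.H68.IsoFormula
import Vale.Agent.H51.Trunc.Main
import Vale.Agent.H51.Prism.Main

namespace Vale.Agent.Results.P254.C0_FormulaVerticesAndPrisms

open Vale.Agent.H68

/-- **Isotropic constant of polytopes with at most `n + 2` vertices (exact formula and the
strong conjecture with its equality case, every `n ≥ 1`) and of prisms over a simplex (every
`n ≥ 2`).**
Let `n ≥ 1`, let `K = conv {v 0, ..., v (n+1)}` have nonempty interior and let `S` be an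
`n`-simplex (the convex hull of `n + 1` affinely independent points).
(F) The points `v k` admit an affine dependence `∑ c k = 0`, `∑ c k • v k = 0` normalised by
`∑ max (c k) 0 = 1`, and for every such dependence
`L_K^(2n) = L_S^(2n) * (1 - (1 - ∑ (c k)₊²) * (1 - ∑ (c k)₋²))`.
(0) `L_K ≤ L_S`, with equality if and only if some `v j` lies in the convex hull of the other
points `v k` (that is, if and only if `K` is a simplex).
Let `n ≥ 2`, let `v 0, ..., v n` be affinely independent and `S = conv {v 0, ..., v n}`.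
(1) Concurrent edges: for `0 < t i < 1` the corner-truncated simplex
`K = conv ({v 1, ..., v n} ∪ {v 0 + t i • (v (i+1) - v 0) : i < n})` has `L_K < L_S`.
(2) Parallel edges: for `0 < h i` the prism
`K = conv ({v 1, ..., v n} ∪ {v (i+1) + h i • (v 0 - v 1) : i < n})` over the simplex
`conv {v 1, ..., v n}`, with `n` parallel edges of direction `v 0 - v 1`, has `L_K < L_S`. -/
theorem result :
    (∀ n : ℕ, 0 < n → ∀ v : Fin (n + 2) → Fin n → ℝ,
      (interior (convexHull ℝ (Set.range v))).Nonempty →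
      ∀ w : Fin (n + 1) → Fin n → ℝ, AffineIndependent ℝ w →
        (∃ c : Fin (n + 2) → ℝ, ∑ k, c k = 0 ∧ ∑ k, c k • v k = 0 ∧ ∑ k, max (c k) 0 = 1) ∧
        ∀ c : Fin (n + 2) → ℝ, ∑ k, c k = 0 → ∑ k, c k • v k = 0 → ∑ k, max (c k) 0 = 1 →
          isoConst (convexHull ℝ (Set.range v)) ^ (2 * n)
            = isoConst (convexHull ℝ (Set.range w)) ^ (2 * n)
              * (1 - (1 - ∑ k, (max (c k) 0) ^ 2) * (1 - ∑ k, (max (-c k) 0) ^ 2)))
    ∧ (∀ n : ℕ, 0 < n → ∀ v : Fin (n + 2) → Fin n → ℝ,
      (interior (convexHull ℝ (Set.range v))).Nonempty →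
      ∀ w : Fin (n + 1) → Fin n → ℝ, AffineIndependent ℝ w →
        isoConst (convexHull ℝ (Set.range v)) ≤ isoConst (convexHull ℝ (Set.range w)) ∧
          (isoConst (convexHull ℝ (Set.range v)) = isoConst (convexHull ℝ (Set.range w)) ↔
            ∃ j, v j ∈ convexHull ℝ (v '' {j}ᶜ)))
    ∧ (∀ n : ℕ, 2 ≤ n → ∀ v : Fin (n + 1) → Fin n → ℝ, AffineIndependent ℝ v →
      (∀ t : Fin n → ℝ, (∀ i, 0 < t i ∧ t i < 1) →
        isoConst (convexHull ℝ (Set.range (fun i : Fin n => v i.succ)
            ∪ Set.range (fun i : Fin n => v 0 + t i • (v i.succ - v 0))))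
          < isoConst (convexHull ℝ (Set.range v)))
      ∧ (∀ h : Fin n → ℝ, (∀ i, 0 < h i) →
        isoConst (convexHull ℝ (Set.range (fun i : Fin n => v i.succ)
            ∪ Set.range (fun i : Fin n => v i.succ + h i • (v 0 - v 1))))
          < isoConst (convexHull ℝ (Set.range v)))) := by
  refine ⟨fun n hn v hv w hw => iso_formula hn v hv w hw,
    fun n hn v hv w hw => iso_main hn v hv w hw,
    fun n hn v hv => ⟨fun t ht => ?_, fun h hh => ?_⟩⟩
  · rw [← Vale.Agent.H51.Trunc.range_truncPts]
    exact Vale.Agent.H51.Trunc.trunc_main hn v hv t ht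
  · rw [← Vale.Agent.H51.Prism.range_prismPts]
    exact Vale.Agent.H51.Prism.prism_main hn v hv h hh

end Vale.Agent.Results.P254.C0_FormulaVerticesAndPrisms
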