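import Mathlib
import Vale.Agent.H68.IsoDefs
import Vale.Agent.H68.IsoMain
import Vale.Agent.H51.Trunc.Main
import Vale.Agent.H51.Prism.Main

namespace Vale.Agent.Results.P254.E_VerticesAndPrisms

open Vale.Agent.H68

/-- **Strong isotropic constant conjecture for polytopes with at most `n + 2` vertices and for
prisms over a simplex, in every dimension `n ≥ 2`.**
Let `v 0, ..., v n` be affinely independent points of `ℝ^n` and `S = conv {v 0, ..., v n}`.
(0) At most `n + 2` vertices: if `K = conv {u 0, ..., u (n+1)}` has nonempty interior then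
`L_K ≤ L_S`, with equality if and only if some `u j` lies in the convex hull of the other points
`u k` (that is, if and only if `K` is a simplex).
(1) Concurrent edges: for `0 < t i < 1` the corner-truncated simplex
`K = conv ({v 1, ..., v n} ∪ {v 0 + t i • (v (i+1) - v 0) : i < n})` has `L_K < L_S`.
(2) Parallel edges: for `0 < h i` the prism
`K = conv ({v 1, ..., v n} ∪ {v (i+1) + h i • (v 0 - v 1) : i < n})` over the simplex
`conv {v 1, ..., v n}`, with `n` parallel edges of direction `v 0 - v 1`, has `L_K < L_S`. -/
theorem result (n : ℕ) (hn : 2 ≤ n) (v : Fin (n + 1) → Fin n → ℝ) (hv : AffineIndependent ℝ v) :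
    (∀ u : Fin (n + 2) → Fin n → ℝ, (interior (convexHull ℝ (Set.range u))).Nonempty →
      isoConst (convexHull ℝ (Set.range u)) ≤ isoConst (convexHull ℝ (Set.range v)) ∧
        (isoConst (convexHull ℝ (Set.range u)) = isoConst (convexHull ℝ (Set.range v)) ↔
          ∃ j, u j ∈ convexHull ℝ (u '' {j}ᶜ)))
    ∧ (∀ t : Fin n → ℝ, (∀ i, 0 < t i ∧ t i < 1) →
      isoConst (convexHull ℝ (Set.range (fun i : Fin n => v i.succ)
          ∪ Set.range (fun i : Fin n => v 0 + t i • (v i.succ - v 0))))
        < isoConst (convexHull ℝ (Set.range v)))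
    ∧ (∀ h : Fin n → ℝ, (∀ i, 0 < h i) →
      isoConst (convexHull ℝ (Set.range (fun i : Fin n => v i.succ)
          ∪ Set.range (fun i : Fin n => v i.succ + h i • (v 0 - v 1))))
        < isoConst (convexHull ℝ (Set.range v))) := by
  refine ⟨fun u hu => ?_, fun t ht => ?_, fun h hh => ?_⟩
  · exact iso_main (by omega) u hu v hv
  · rw [← Vale.Agent.H51.Trunc.range_truncPts]
    exact Vale.Agent.H51.Trunc.trunc_main hn v hv t ht
  · rw [← Vale.Agent.H51.Prism.range_prismPts]
    exact Vale.Agent.H51.Prism.prism_main hn v hv h hh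

end Vale.Agent.Results.P254.E_VerticesAndPrisms
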