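import Mathlib
import Vale.Agent.H68.IsoDefs
import Vale.Agent.H51.Trunc.Main

namespace Vale.Agent.Results.P254.F_TruncatedSimplex

open Vale.Agent.H68

/-- **Strong isotropic constant conjecture for corner-truncated simplices, in every dimension
`n ≥ 2`.**
Let `v 0, ..., v n` be affinely independent points of `ℝ^n` and let `0 < t i < 1` for
`i = 0, ..., n - 1`.  Cutting off the corner at `v 0` of the simplex `S = conv {v 0, ..., v n}` by
the hyperplane through the points `v 0 + t i • (v (i+1) - v 0)` on the `n` edges at `v 0` leaves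
the polytope `K = conv ({v 1, ..., v n} ∪ {v 0 + t i • (v (i+1) - v 0) : i < n})`.
Then `L_K < L_S`. -/
theorem result (n : ℕ) (hn : 2 ≤ n) (v : Fin (n + 1) → Fin n → ℝ) (hv : AffineIndependent ℝ v)
    (t : Fin n → ℝ) (ht : ∀ i, 0 < t i ∧ t i < 1) :
    isoConst (convexHull ℝ (Set.range (fun i : Fin n => v i.succ)
        ∪ Set.range (fun i : Fin n => v 0 + t i • (v i.succ - v 0))))
      < isoConst (convexHull ℝ (Set.range v)) := by
  rw [← Vale.Agent.H51.Trunc.range_truncPts]
  exact Vale.Agent.H51.Trunc.trunc_main hn v hv t ht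

end Vale.Agent.Results.P254.F_TruncatedSimplex
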